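import Vale.Agent.P062.Game

namespace Vale.Agent.P062

/-- A set of cells is good-with-core-and-zone: Maker wins, moving first, whenever he owns the core
and Breaker owns no cell of the zone. -/
def Good (C Z : Set Cell) : Prop :=
  ∀ M B : Finset Cell, (∀ p ∈ C, p ∈ M) → (∀ p ∈ Z, p ∉ B) → (∀ p ∈ M, p ∉ B) → Win M B

/-- The cell coded by a natural number.  The rows `-2, …, 7` have the numbers `0, …, 9`, the row
number `10` is not used, and the rows `-7, …, -3` have the numbers `11, …, 15`. -/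
def cellOf (i : ℕ) : Cell :=
  (((i % 16 : ℕ) : ℤ) - 7, if i < 256 then (((i / 16 + 5) % 16 : ℕ) : ℤ) - 7 else ((i / 16 : ℕ) : ℤ))

theorem cellOf_injective : Function.Injective cellOf := by
  intro i j h
  simp only [cellOf, Prod.mk.injEq] at h
  obtain ⟨h1, h2⟩ := h
  split_ifs at h2 <;> omega

/-- The set of cells coded by the binary digits of a natural number. -/
def S (n : ℕ) : Set Cell := {p | ∃ i, n.testBit i = true ∧ cellOf i = p}

theorem mem_S_cellOf {n i : ℕ} : cellOf i ∈ S n ↔ n.testBit i = true := by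
  constructor
  · rintro ⟨j, hj, h⟩
    rw [← cellOf_injective h]; exact hj
  · intro h; exact ⟨i, h, rfl⟩

theorem mem_S_or {a b : ℕ} {p : Cell} : p ∈ S (a ||| b) ↔ p ∈ S a ∨ p ∈ S b := by
  constructor
  · rintro ⟨i, hi, rfl⟩
    rw [Nat.testBit_or, Bool.or_eq_true] at hi
    rcases hi with h | h
    · exact Or.inl ⟨i, h, rfl⟩
    · exact Or.inr ⟨i, h, rfl⟩
  · rintro (⟨i, hi, rfl⟩ | ⟨i, hi, rfl⟩)
    · exact ⟨i, by rw [Nat.testBit_or, hi, Bool.true_or], rfl⟩
    · exact ⟨i, by rw [Nat.testBit_or, hi, Bool.or_true], rfl⟩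

theorem mem_S_and {a b : ℕ} {p : Cell} : p ∈ S (a &&& b) ↔ p ∈ S a ∧ p ∈ S b := by
  constructor
  · rintro ⟨i, hi, rfl⟩
    rw [Nat.testBit_and, Bool.and_eq_true] at hi
    exact ⟨⟨i, hi.1, rfl⟩, ⟨i, hi.2, rfl⟩⟩
  · rintro ⟨⟨i, hi, rfl⟩, h⟩
    rw [mem_S_cellOf] at h
    exact ⟨i, by rw [Nat.testBit_and, hi, h, Bool.true_and], rfl⟩

/-- Set difference of coded sets. -/
def diff (a b : ℕ) : ℕ := Nat.xor a (Nat.land a b)

theorem mem_S_diff {a b : ℕ} {p : Cell} : p ∈ S (diff a b) ↔ p ∈ S a ∧ p ∉ S b := by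
  have key : ∀ i, (diff a b).testBit i = (a.testBit i && !b.testBit i) := by
    intro i
    show (a ^^^ (a &&& b)).testBit i = _
    rw [Nat.testBit_xor, Nat.testBit_and]
    cases a.testBit i <;> cases b.testBit i <;> rfl
  constructor
  · rintro ⟨i, hi, rfl⟩
    rw [key, Bool.and_eq_true, Bool.not_eq_true'] at hi
    refine ⟨⟨i, hi.1, rfl⟩, ?_⟩
    rw [mem_S_cellOf, hi.2]; simp
  · rintro ⟨⟨i, hi, rfl⟩, h⟩
    rw [mem_S_cellOf, Bool.not_eq_true] at h
    exact ⟨i, by rw [key, hi, h]; rfl, rfl⟩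

/-- The coded singleton. -/
def bit (m : ℕ) : ℕ := Nat.shiftLeft (nat_lit 1) m

theorem mem_S_bit {m : ℕ} {p : Cell} : p ∈ S (bit m) ↔ p = cellOf m := by
  have key : ∀ i, (bit m).testBit i = decide (m = i) := by
    intro i
    show (1 <<< m).testBit i = _
    rw [Nat.one_shiftLeft, Nat.testBit_two_pow]
  constructor
  · rintro ⟨i, hi, rfl⟩
    rw [key] at hi
    rw [of_decide_eq_true hi]
  · rintro rfl
    exact ⟨m, by rw [key]; simp, rfl⟩

/-- A list of patterns (core, zone), all good. -/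
def AllG (l : List (ℕ × ℕ)) : Prop := ∀ q ∈ l, Good (S q.1) (S q.2)

theorem exists_fresh (M B : Finset Cell) : ∃ m : Cell, m ∉ M ∧ m ∉ B := by
  obtain ⟨m, hm⟩ := Infinite.exists_notMem_finset (M ∪ B)
  exact ⟨m, fun h => hm (Finset.mem_union_left _ h), fun h => hm (Finset.mem_union_right _ h)⟩

/-- The set-level rule of one step. -/
theorem good_step {ι : Type} (Cs Zs : ι → Set Cell) (hG : ∀ i, Good (Cs i) (Zs i))
    (m : Cell) (C Z : Set Cell)
    (hC : ∀ i, ∀ p ∈ Cs i, p ∈ C ∨ p = m)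
    (hZ : ∀ i, ∀ p ∈ Zs i, p ∈ C ∨ p ∈ Z)
    (hI : ∀ p, (∀ i, p ∈ Zs i) → p ∈ C ∨ p = m)
    (hm : m ∈ C ∨ m ∈ Z) : Good C Z := by
  intro M B hCM hZB hMB
  have main : ∀ m' : Cell, m' ∉ M → m' ∉ B → (m ∈ insert m' M) → Win M B := by
    intro m' h1 h2 h3
    refine Win.move m' h1 h2 (fun b hb1 hb2 => ?_)
    have : ∃ i, b ∉ Zs i := by
      by_contra hcon
      push Not at hcon
      rcases hI b hcon with h | h
      · exact hb1 (Finset.mem_insert_of_mem (hCM b h))
      · exact hb1 (h ▸ h3)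
    obtain ⟨i, hi⟩ := this
    refine hG i _ _ ?_ ?_ ?_
    · intro p hp
      rcases hC i p hp with h | h
      · exact Finset.mem_insert_of_mem (hCM p h)
      · exact h ▸ h3
    · intro p hp hpB
      rcases Finset.mem_insert.mp hpB with h | h
      · exact hi (h ▸ hp)
      · rcases hZ i p hp with h' | h'
        · exact hMB p (hCM p h') h
        · exact hZB p h' h
    · intro p hp hpB
      rcases Finset.mem_insert.mp hpB with h | h
      · exact hb1 (h ▸ hp)
      · rcases Finset.mem_insert.mp hp with h' | h'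
        · exact h2 (h' ▸ h)
        · exact hMB p h' h
  by_cases hmM : m ∈ M
  · obtain ⟨m', h1, h2⟩ := exists_fresh M B
    exact main m' h1 h2 (Finset.mem_insert_of_mem hmM)
  · refine main m hmM ?_ (Finset.mem_insert_self _ _)
    rcases hm with h | h
    · exact absurd (hCM m h) hmM
    · exact hZB m h

/-- The set-level rule of an immediate win. -/
theorem good_leaf (K : Finset Cell) (hK : IsCopy K) (m : Cell) (C Z : Set Cell)
    (hC : ∀ p ∈ K, p ∈ C ∨ p = m) (hm : m ∈ Z) : Good C Z := by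
  intro M B hCM hZB hMB
  by_cases hmM : m ∈ M
  · refine Win.own K hK (fun p hp => ?_)
    rcases hC p hp with h | h
    · exact hCM p h
    · exact h ▸ hmM
  · refine Win.move m hmM (hZB m hm) (fun b _ _ => Win.own K hK (fun p hp => ?_))
    rcases hC p hp with h | h
    · exact Finset.mem_insert_of_mem (hCM p h)
    · exact h ▸ Finset.mem_insert_self _ _

/-! ### Leaves -/

/-- The codes of the cells of the eight normalized copies. -/
def shape : ℕ → List ℕ
  | 0 => [0, 1, 2, 3, 19, 20]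
  | 1 => [16, 17, 18, 19, 3, 4]
  | 2 => [1, 2, 3, 4, 16, 17]
  | 3 => [0, 1, 17, 18, 19, 20]
  | 4 => [0, 16, 32, 48, 49, 65]
  | 5 => [1, 17, 33, 49, 48, 64]
  | 6 => [16, 32, 48, 64, 1, 17]
  | _ => [0, 16, 17, 33, 49, 65]

/-- The union of the bits of a list of codes. -/
def bits : List ℕ → ℕ
  | [] => 0
  | a :: l => Nat.lor (bit a) (bits l)

theorem mem_S_bits {l : List ℕ} {p : Cell} : p ∈ S (bits l) ↔ ∃ a ∈ l, p = cellOf a := by
  induction l with
  | nil =>
    simp only [bits, List.not_mem_nil, false_and, exists_false, iff_false]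
    rintro ⟨i, hi, -⟩
    simp at hi
  | cons a l ih =>
    show p ∈ S (bit a ||| bits l) ↔ _
    rw [mem_S_or, mem_S_bit, ih]
    simp

end Vale.Agent.P062
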