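import Mathlib

namespace Vale.Agent.P062

/-- A cell of the square grid, indexed by its lower-left corner. -/
abbrev Cell : Type := ℤ × ℤ

/-- The hexomino Snaky. -/
def snaky : Finset Cell := {(0, 0), (1, 0), (2, 0), (3, 0), (3, 1), (4, 1)}

/-- The eight signed permutation matrices acting on cells: first negate coordinates as told by
`sx`, `sy`, then swap the coordinates if `sw` is true. -/
def signedPerm (sx sy sw : Bool) (p : Cell) : Cell :=
  let x := if sx then -p.1 else p.1
  let y := if sy then -p.2 else p.2
  if sw then (y, x) else (x, y)

/-- An allowed copy of Snaky: the image of Snaky under a signed permutation matrix followed by a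
translation. -/
def IsCopy (C : Finset Cell) : Prop :=
  ∃ (sx sy sw : Bool) (t : Cell), C = snaky.image (fun p => t + signedPerm sx sy sw p)

/-- A strategy of Maker: the cell to claim next, given the list of the cells claimed by Breaker so
far, in the order in which they were claimed. -/
abbrev Strategy : Type := List Cell → Cell

/-- The cell claimed by Maker in round `k` (rounds are numbered `0, 1, 2, …`) when Maker follows the
strategy `σ` and Breaker claims `b 0, b 1, …`. -/
def makerMove (σ : Strategy) (b : ℕ → Cell) (k : ℕ) : Cell := σ ((List.range k).map b)

/-- The cells claimed by Maker in the rounds before round `n`. -/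
def makerCells (σ : Strategy) (b : ℕ → Cell) (n : ℕ) : Finset Cell :=
  (Finset.range n).image (makerMove σ b)

/-- The cells claimed by Breaker in the rounds before round `n`. -/
def breakerCells (b : ℕ → Cell) (n : ℕ) : Finset Cell := (Finset.range n).image b

/-- Every claim of Breaker is legal: in round `k`, after the claim of Maker, Breaker claims a
cell that is still unclaimed. -/
def BreakerLegal (σ : Strategy) (b : ℕ → Cell) : Prop :=
  ∀ k, b k ∉ makerCells σ b (k + 1) ∧ b k ∉ breakerCells b k

/-- Maker wins in round `n`: all claims of Maker in the rounds `0, …, n` are legal, and after them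
Maker owns every cell of some allowed copy of Snaky. -/
def MakerWinsAt (σ : Strategy) (b : ℕ → Cell) (n : ℕ) : Prop :=
  (∀ k ≤ n, makerMove σ b k ∉ makerCells σ b k ∧ makerMove σ b k ∉ breakerCells b k) ∧
    ∃ C, IsCopy C ∧ C ⊆ makerCells σ b (n + 1)

/-- Maker, who moves first on the empty board, has a winning strategy. -/
def MakerHasWinningStrategy : Prop :=
  ∃ σ : Strategy, ∀ b : ℕ → Cell, BreakerLegal σ b → ∃ n, MakerWinsAt σ b n

end Vale.Agent.P062
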