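import Vale.Agent.P062.Run

namespace Vale.Agent.P062

theorem signedPerm_comp (sx sy sw sx' sy' sw' : Bool) :
    ∃ a b c : Bool, ∀ p, signedPerm sx sy sw (signedPerm sx' sy' sw' p) = signedPerm a b c p := by
  refine ⟨xor sx' (if sw' then sy else sx), xor sy' (if sw' then sx else sy), xor sw sw',
    fun p => ?_⟩
  cases sx <;> cases sy <;> cases sw <;> cases sx' <;> cases sy' <;> cases sw' <;>
    simp [signedPerm]

theorem signedPerm_inv (sx sy sw : Bool) :
    ∃ a b c : Bool, (∀ p, signedPerm sx sy sw (signedPerm a b c p) = p) ∧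
      (∀ p, signedPerm a b c (signedPerm sx sy sw p) = p) := by
  refine ⟨if sw then sy else sx, if sw then sx else sy, sw, fun p => ?_, fun p => ?_⟩ <;>
  cases sx <;> cases sy <;> cases sw <;> simp [signedPerm]

theorem signedPerm_add (sx sy sw : Bool) (p q : Cell) :
    signedPerm sx sy sw (p + q) = signedPerm sx sy sw p + signedPerm sx sy sw q := by
  cases sx <;> cases sy <;> cases sw <;> ext <;> simp [signedPerm, add_comm]

theorem signedPerm_zero (sx sy sw : Bool) : signedPerm sx sy sw (0, 0) = (0, 0) := by
  cases sx <;> cases sy <;> cases sw <;> rfl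

theorem IsCopy.symm {C : Finset Cell} (h : IsCopy C) (sx sy sw : Bool) :
    IsCopy (C.image (signedPerm sx sy sw)) := by
  obtain ⟨a, b, c, t, rfl⟩ := h
  obtain ⟨a', b', c', h'⟩ := signedPerm_comp sx sy sw a b c
  refine ⟨a', b', c', signedPerm sx sy sw t, ?_⟩
  rw [Finset.image_image]
  congr 1
  funext p
  simp only [Function.comp_apply, signedPerm_add, h']

theorem Win.symm (sx sy sw : Bool) {M B : Finset Cell} (h : Win M B) :
    Win (M.image (signedPerm sx sy sw)) (B.image (signedPerm sx sy sw)) := by
  obtain ⟨a, b, c, h1, h2⟩ := signedPerm_inv sx sy sw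
  have hinj : Function.Injective (signedPerm sx sy sw) := Function.LeftInverse.injective h2
  induction h with
  | @own M B C hC h =>
    exact Win.own _ (hC.symm sx sy sw) (Finset.image_subset_image h)
  | @move M B m hM hB h ih =>
    refine Win.move (signedPerm sx sy sw m) ?_ ?_ ?_
    · rw [Finset.mem_image]
      rintro ⟨q, hq, he⟩
      exact hM (hinj he ▸ hq)
    · rw [Finset.mem_image]
      rintro ⟨q, hq, he⟩
      exact hB (hinj he ▸ hq)
    · intro b' hb1 hb2
      have := ih (signedPerm a b c b') (fun hc => hb1 ?_) (fun hc => hb2 ?_)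
      · rw [Finset.image_insert, Finset.image_insert, h1] at this
        exact this
      · rw [← Finset.image_insert, Finset.mem_image]
        exact ⟨_, hc, h1 _⟩
      · rw [Finset.mem_image]
        exact ⟨_, hc, h1 _⟩

/-- Is the image of the cell coded by `(x, y)` outside the set coded by `z`? -/
def outside (z : ℕ) (sx sy sw : Bool) (x y : ℕ) : Bool :=
  let x' := if sx then 14 - x else x
  let y' := if sy then 14 - y else y
  !(z.testBit (if sw then y' + 16 * ((x' + 11) % 16) else x' + 16 * ((y' + 11) % 16)))

/-- All symmetries. -/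
def syms : List (Bool × Bool × Bool) :=
  [(false, false, false), (true, false, false), (false, true, false), (true, true, false),
    (false, false, true), (true, false, true), (false, true, true), (true, true, true)]

/-- The final check. -/
def covers (l : List ℕ) : Bool :=
  l.all (fun z => Nat.beq (z ||| board) board) &&
  (List.range 15).all fun x => (List.range 15).all fun y =>
    (x == 7 && y == 7) || l.any fun z => syms.any fun s => outside z s.1 s.2.1 s.2.2 x y

theorem win_of_goods (l : List ℕ) (h : ∀ z ∈ l, Good (S 549755813888) (S z))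
    (hc : covers l = true) (hne : l ≠ []) : Win ∅ ∅ := by
  have hcore : S 549755813888 = {((0, 0) : Cell)} := by
    ext p
    rw [show (549755813888 : ℕ) = bit 39 by decide +kernel, mem_S_bit]
    rfl
  rw [hcore] at h
  simp only [covers, Bool.and_eq_true, List.all_eq_true, List.mem_range, Bool.or_eq_true,
    List.any_eq_true, beq_iff_eq] at hc
  obtain ⟨hb, hc⟩ := hc
  have hbd : ∀ z ∈ l, ∀ p ∈ S z, -7 ≤ p.1 ∧ p.1 ≤ 7 ∧ -7 ≤ p.2 ∧ p.2 ≤ 7 := by
    rintro z hz p ⟨i, hi, rfl⟩
    have h1 := Nat.eq_of_beq_eq_true (hb z hz)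
    have h2 : board.testBit i = true := by
      rw [← h1, Nat.testBit_or, hi, Bool.true_or]
    have h3 := board_ok i h2
    simp only [cellOf, h3.1, if_true]
    omega
  refine Win.move (0, 0) (by simp) (by simp) (fun b hb0 _ => ?_)
  have hb0 : b ≠ (0, 0) := by simpa using hb0
  obtain ⟨z, hz, sx, sy, sw, hout⟩ : ∃ z ∈ l, ∃ sx sy sw : Bool, signedPerm sx sy sw b ∉ S z := by
    by_cases hin : -7 ≤ b.1 ∧ b.1 ≤ 7 ∧ -7 ≤ b.2 ∧ b.2 ≤ 7
    · obtain ⟨x, hx⟩ := Int.eq_ofNat_of_zero_le (show 0 ≤ b.1 + 7 by omega)
      obtain ⟨y, hy⟩ := Int.eq_ofNat_of_zero_le (show 0 ≤ b.2 + 7 by omega)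
      have hbx : b.1 = (x : ℤ) - 7 := by omega
      have hby : b.2 = (y : ℤ) - 7 := by omega
      rcases hc x (by omega) y (by omega) with ⟨h1, h2⟩ | ⟨z, hz, s, hs, hs2⟩
      · exfalso
        apply hb0
        ext
        · simp [hbx, h1]
        · simp [hby, h2]
      · refine ⟨z, hz, s.1, s.2.1, s.2.2, ?_⟩
        obtain ⟨sx, sy, sw⟩ := s
        simp only [outside, Bool.not_eq_true'] at hs2
        set x' := (if sx then 14 - x else x) with hx'
        set y' := (if sy then 14 - y else y) with hy'
        have ex : (if sx then -b.1 else b.1) = (x' : ℤ) - 7 := by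
          cases sx <;> simp [hx', hbx] <;> omega
        have ey : (if sy then -b.2 else b.2) = (y' : ℤ) - 7 := by
          cases sy <;> simp [hy', hby] <;> omega
        have lx : x' < 15 := by cases sx <;> simp [hx'] <;> omega
        have ly : y' < 15 := by cases sy <;> simp [hy'] <;> omega
        have key : signedPerm sx sy sw b =
            cellOf (if sw then y' + 16 * ((x' + 11) % 16) else x' + 16 * ((y' + 11) % 16)) := by
          have key2 : ∀ u v : ℕ, u < 15 → v < 15 →
              cellOf (u + 16 * ((v + 11) % 16)) = ((u : ℤ) - 7, (v : ℤ) - 7) := by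
            intro u v hu hv
            have e0 : u + 16 * ((v + 11) % 16) < 256 := by omega
            have e1 : (u + 16 * ((v + 11) % 16)) % 16 = u := by omega
            have e2 : ((u + 16 * ((v + 11) % 16)) / 16 + 5) % 16 = v := by omega
            simp only [cellOf, e0, if_true, e1, e2]
          cases sw
          · simp only [signedPerm, ex, ey, Bool.false_eq_true, if_false, key2 x' y' lx ly]
          · simp only [signedPerm, ex, ey, if_true, key2 y' x' ly lx]
        rw [key, mem_S_cellOf, hs2]
        simp
    · obtain ⟨z, hz⟩ := List.exists_mem_of_ne_nil l hne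
      refine ⟨z, hz, false, false, false, fun hmem => hin ?_⟩
      exact hbd z hz _ hmem
  obtain ⟨a', b', c', h1, h2⟩ := signedPerm_inv sx sy sw
  have hw : Win {(0, 0)} {signedPerm sx sy sw b} := by
    refine h z hz {(0, 0)} {signedPerm sx sy sw b} ?_ ?_ ?_
    · intro p hp
      rw [Set.mem_singleton_iff.mp hp]
      simp
    · intro p hp hp2
      rw [Finset.mem_singleton.mp hp2] at hp
      exact hout hp
    · intro p hp hp2
      rw [Finset.mem_singleton] at hp hp2
      apply hb0
      have := h2 b
      rw [← hp2, hp, signedPerm_zero] at this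
      exact this.symm
  have := hw.symm a' b' c'
  simpa [h2, signedPerm_zero] using this

end Vale.Agent.P062
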