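import Vale.Agent.P062.Defs

namespace Vale.Agent.P062

/-- `Win M B`: Maker, to move, owning `M` while Breaker owns `B`, can force a win. -/
inductive Win : Finset Cell → Finset Cell → Prop
  | own {M B : Finset Cell} (C : Finset Cell) (hC : IsCopy C) (h : C ⊆ M) : Win M B
  | move {M B : Finset Cell} (m : Cell) (hM : m ∉ M) (hB : m ∉ B)
      (h : ∀ b, b ∉ insert m M → b ∉ B → Win (insert m M) (insert b B)) : Win M B

theorem makerMove_zero (σ : Strategy) (b : ℕ → Cell) : makerMove σ b 0 = σ [] := rfl

theorem makerMove_succ (σ : Strategy) (b : ℕ → Cell) (k : ℕ) :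
    makerMove σ b (k + 1) = makerMove (fun l => σ (b 0 :: l)) (fun i => b (i + 1)) k := by
  unfold makerMove
  rw [List.range_succ_eq_map]
  simp [List.map_map, Function.comp_def]

theorem makerCells_succ (σ : Strategy) (b : ℕ → Cell) (k : ℕ) :
    makerCells σ b (k + 1) =
      insert (σ []) (makerCells (fun l => σ (b 0 :: l)) (fun i => b (i + 1)) k) := by
  unfold makerCells
  ext p
  simp only [Finset.mem_image, Finset.mem_range, Finset.mem_insert]
  constructor
  · rintro ⟨i, hi, rfl⟩
    cases i with
    | zero => left; rfl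
    | succ i => right; exact ⟨i, by omega, (makerMove_succ σ b i).symm⟩
  · rintro (rfl | ⟨i, hi, rfl⟩)
    · exact ⟨0, by omega, rfl⟩
    · exact ⟨i + 1, by omega, makerMove_succ σ b i⟩

theorem breakerCells_succ (b : ℕ → Cell) (k : ℕ) :
    breakerCells b (k + 1) = insert (b 0) (breakerCells (fun i => b (i + 1)) k) := by
  unfold breakerCells
  ext p
  simp only [Finset.mem_image, Finset.mem_range, Finset.mem_insert]
  constructor
  · rintro ⟨i, hi, rfl⟩
    cases i with
    | zero => left; rfl
    | succ i => right; exact ⟨i, by omega, rfl⟩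
  · rintro (rfl | ⟨i, hi, rfl⟩)
    · exact ⟨0, by omega, rfl⟩
    · exact ⟨i + 1, by omega, rfl⟩

theorem exists_strategy {M B : Finset Cell} (h : Win M B) :
    ∃ σ : Strategy, ∀ b : ℕ → Cell,
      (∀ k, b k ∉ M ∪ makerCells σ b (k + 1) ∧ b k ∉ B ∪ breakerCells b k) →
      ∃ n, (∀ k < n, makerMove σ b k ∉ M ∪ makerCells σ b k ∧
          makerMove σ b k ∉ B ∪ breakerCells b k) ∧
        ∃ C, IsCopy C ∧ C ⊆ M ∪ makerCells σ b n := by
  induction h with
  | @own M B C hC h =>
    refine ⟨fun _ => (0, 0), fun b _ => ⟨0, fun k hk => absurd hk (Nat.not_lt_zero _), C, hC, ?_⟩⟩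
    exact h.trans Finset.subset_union_left
  | @move M B m hM hB h ih =>
    have ih' : ∀ b0 : Cell, ∃ σ : Strategy, b0 ∉ insert m M → b0 ∉ B → ∀ b : ℕ → Cell,
        (∀ k, b k ∉ insert m M ∪ makerCells σ b (k + 1) ∧
          b k ∉ insert b0 B ∪ breakerCells b k) →
        ∃ n, (∀ k < n, makerMove σ b k ∉ insert m M ∪ makerCells σ b k ∧
          makerMove σ b k ∉ insert b0 B ∪ breakerCells b k) ∧
        ∃ C, IsCopy C ∧ C ⊆ insert m M ∪ makerCells σ b n := by
      intro b0
      by_cases h1 : b0 ∉ insert m M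
      · by_cases h2 : b0 ∉ B
        · obtain ⟨σ, hσ⟩ := ih b0 h1 h2
          exact ⟨σ, fun _ _ => hσ⟩
        · exact ⟨fun _ => (0, 0), fun _ h => absurd h h2⟩
      · exact ⟨fun _ => (0, 0), fun h => absurd h h1⟩
    choose τ hτ using ih'
    refine ⟨fun l => match l with | [] => m | b0 :: l => τ b0 l, ?_⟩
    intro b hb
    set σ : Strategy := fun l => match l with | [] => m | b0 :: l => τ b0 l with hσ
    have hσ0 : σ [] = m := rfl
    have hσ1 : (fun l => σ (b 0 :: l)) = τ (b 0) := rfl
    have h0 := hb 0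
    rw [makerCells_succ, hσ0] at h0
    have h01 : b 0 ∉ insert m M := by
      intro hc
      apply h0.1
      rcases Finset.mem_insert.mp hc with hc | hc
      · exact Finset.mem_union_right _ (hc ▸ Finset.mem_insert_self _ _)
      · exact Finset.mem_union_left _ hc
    have h02 : b 0 ∉ B := fun hc => h0.2 (Finset.mem_union_left _ hc)
    obtain ⟨n, hn, C, hC, hCs⟩ := hτ (b 0) h01 h02 (fun i => b (i + 1)) (by
      intro k
      have := hb (k + 1)
      rw [makerCells_succ, hσ0, hσ1, breakerCells_succ] at this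
      refine ⟨fun hc => this.1 ?_, fun hc => this.2 ?_⟩
      · simp only [Finset.mem_union, Finset.mem_insert] at hc ⊢
        tauto
      · simp only [Finset.mem_union, Finset.mem_insert] at hc ⊢
        tauto)
    refine ⟨n + 1, ?_, C, hC, ?_⟩
    · intro k hk
      cases k with
      | zero =>
        rw [makerMove_zero, hσ0]
        simp [makerCells, breakerCells, hM, hB]
      | succ k =>
        have := hn k (by omega)
        rw [makerMove_succ, makerCells_succ, breakerCells_succ, hσ0, hσ1]
        refine ⟨fun hc => this.1 ?_, fun hc => this.2 ?_⟩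
        · simp only [Finset.mem_union, Finset.mem_insert] at hc ⊢
          tauto
        · simp only [Finset.mem_union, Finset.mem_insert] at hc ⊢
          tauto
    · rw [makerCells_succ, hσ0, hσ1]
      intro p hp
      have := hCs hp
      simp only [Finset.mem_union, Finset.mem_insert] at this ⊢
      tauto

theorem IsCopy.nonempty {C : Finset Cell} (h : IsCopy C) : C.Nonempty := by
  obtain ⟨sx, sy, sw, t, rfl⟩ := h
  exact ⟨_, Finset.mem_image_of_mem _ (show ((0, 0) : Cell) ∈ snaky by simp [snaky])⟩

theorem hasWinningStrategy_of_win (h : Win ∅ ∅) : MakerHasWinningStrategy := by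
  obtain ⟨σ, hσ⟩ := exists_strategy h
  refine ⟨σ, fun b hb => ?_⟩
  obtain ⟨n, hn, C, hC, hCs⟩ := hσ b (by
    intro k
    simpa using hb k)
  cases n with
  | zero =>
    exfalso
    obtain ⟨p, hp⟩ := hC.nonempty
    have := hCs hp
    simp [makerCells] at this
  | succ n =>
    refine ⟨n, ?_, C, hC, ?_⟩
    · intro k hk
      simpa using hn k (by omega)
    · simpa using hCs

end Vale.Agent.P062
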