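import Vale.Agent.P062.Final

namespace Vale.Agent.P062

/-- `WinX X M B`: Maker, to move, owning `M` while Breaker owns `B`, can force that he wins or that
the list of the further claims of Breaker has an initial segment in `X`. -/
inductive WinX : (List Cell → Prop) → Finset Cell → Finset Cell → Prop
  | excused {X : List Cell → Prop} {M B : Finset Cell} (h : X []) : WinX X M B
  | win {X : List Cell → Prop} {M B : Finset Cell} (h : Win M B) : WinX X M B
  | move {X : List Cell → Prop} {M B : Finset Cell} (m : Cell) (hM : m ∉ M) (hB : m ∉ B)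
      (h : ∀ b, b ∉ insert m M → b ∉ B → WinX (fun l => X (b :: l)) (insert m M) (insert b B)) :
      WinX X M B

theorem exists_strategyX {X : List Cell → Prop} {M B : Finset Cell} (h : WinX X M B) :
    ∃ σ : Strategy, ∀ b : ℕ → Cell,
      (∀ k, b k ∉ M ∪ makerCells σ b (k + 1) ∧ b k ∉ B ∪ breakerCells b k) →
      (∃ k, X ((List.range k).map b)) ∨
      ∃ n, (∀ k < n, makerMove σ b k ∉ M ∪ makerCells σ b k ∧
          makerMove σ b k ∉ B ∪ breakerCells b k) ∧
        ∃ C, IsCopy C ∧ C ⊆ M ∪ makerCells σ b n := by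
  induction h with
  | @excused X M B h =>
    exact ⟨fun _ => (0, 0), fun b _ => Or.inl ⟨0, by simpa using h⟩⟩
  | @win X M B h =>
    obtain ⟨σ, hσ⟩ := exists_strategy h
    exact ⟨σ, fun b hb => Or.inr (hσ b hb)⟩
  | @move X M B m hM hB h ih =>
    have ih' : ∀ b0 : Cell, ∃ σ : Strategy, b0 ∉ insert m M → b0 ∉ B → ∀ b : ℕ → Cell,
        (∀ k, b k ∉ insert m M ∪ makerCells σ b (k + 1) ∧
          b k ∉ insert b0 B ∪ breakerCells b k) →
        (∃ k, X (b0 :: (List.range k).map b)) ∨
        ∃ n, (∀ k < n, makerMove σ b k ∉ insert m M ∪ makerCells σ b k ∧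
          makerMove σ b k ∉ insert b0 B ∪ breakerCells b k) ∧
        ∃ C, IsCopy C ∧ C ⊆ insert m M ∪ makerCells σ b n := by
      intro b0
      by_cases h1 : b0 ∉ insert m M
      · by_cases h2 : b0 ∉ B
        · obtain ⟨σ, hσ⟩ := ih b0 h1 h2
          exact ⟨σ, fun _ _ => hσ⟩
        · exact ⟨fun _ => (0, 0), fun _ h => absurd h h2⟩
      · exact ⟨fun _ => (0, 0), fun h => absurd h h1⟩
    choose τ hτ using ih'
    refine ⟨fun l => match l with | [] => m | b0 :: l => τ b0 l, ?_⟩
    intro b hb
    set σ : Strategy := fun l => match l with | [] => m | b0 :: l => τ b0 l with hσ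
    have hσ0 : σ [] = m := rfl
    have hσ1 : (fun l => σ (b 0 :: l)) = τ (b 0) := rfl
    have h0 := hb 0
    rw [makerCells_succ, hσ0] at h0
    have h01 : b 0 ∉ insert m M := by
      intro hc
      apply h0.1
      rcases Finset.mem_insert.mp hc with hc | hc
      · exact Finset.mem_union_right _ (hc ▸ Finset.mem_insert_self _ _)
      · exact Finset.mem_union_left _ hc
    have h02 : b 0 ∉ B := fun hc => h0.2 (Finset.mem_union_left _ hc)
    have hmain := hτ (b 0) h01 h02 (fun i => b (i + 1)) (by
      intro k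
      have := hb (k + 1)
      rw [makerCells_succ, hσ0, hσ1, breakerCells_succ] at this
      refine ⟨fun hc => this.1 ?_, fun hc => this.2 ?_⟩
      · simp only [Finset.mem_union, Finset.mem_insert] at hc ⊢
        tauto
      · simp only [Finset.mem_union, Finset.mem_insert] at hc ⊢
        tauto)
    rcases hmain with ⟨k, hk⟩ | ⟨n, hn, C, hC, hCs⟩
    · left
      refine ⟨k + 1, ?_⟩
      rw [List.range_succ_eq_map, List.map_cons, List.map_map]
      exact hk
    right
    refine ⟨n + 1, ?_, C, hC, ?_⟩
    · intro k hk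
      cases k with
      | zero =>
        rw [makerMove_zero, hσ0]
        simp [makerCells, breakerCells, hM, hB]
      | succ k =>
        have := hn k (by omega)
        rw [makerMove_succ, makerCells_succ, breakerCells_succ, hσ0, hσ1]
        refine ⟨fun hc => this.1 ?_, fun hc => this.2 ?_⟩
        · simp only [Finset.mem_union, Finset.mem_insert] at hc ⊢
          tauto
        · simp only [Finset.mem_union, Finset.mem_insert] at hc ⊢
          tauto
    · rw [makerCells_succ, hσ0, hσ1]
      intro p hp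
      have := hCs hp
      simp only [Finset.mem_union, Finset.mem_insert] at this ⊢
      tauto

theorem WinX.strategy {X : List Cell → Prop} (h : WinX X ∅ ∅) :
    ∃ σ : Strategy, ∀ b : ℕ → Cell, BreakerLegal σ b →
      (∃ k, X ((List.range k).map b)) ∨ ∃ n, MakerWinsAt σ b n := by
  obtain ⟨σ, hσ⟩ := exists_strategyX h
  refine ⟨σ, fun b hb => ?_⟩
  rcases hσ b (by
    intro k
    simpa using hb k) with hk | ⟨n, hn, C, hC, hCs⟩
  · exact Or.inl hk
  right
  cases n with
  | zero =>
    exfalso
    obtain ⟨p, hp⟩ := hC.nonempty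
    have := hCs hp
    simp [makerCells] at this
  | succ n =>
    refine ⟨n, ?_, C, hC, ?_⟩
    · intro k hk
      simpa using hn k (by omega)
    · simpa using hCs

/-- The checks that a cell is one of the four cells adjacent to the origin (shifted by `7`). -/
def nbr (x y : ℕ) : Bool :=
  (Nat.beq x 7 && (Nat.beq y 6 || Nat.beq y 8)) || (Nat.beq y 7 && (Nat.beq x 6 || Nat.beq x 8))

/-- The covering check of the first reply, without the four cells adjacent to the origin. -/
def coversX (l : List ℕ) : Bool :=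
  l.all (fun z => Nat.beq (z ||| board) board) &&
  (List.range 15).all fun x => (List.range 15).all fun y =>
    (x == 7 && y == 7) || nbr x y || l.any fun z => syms.any fun s => outside z s.1 s.2.1 s.2.2 x y

/-- The covering check of the second reply. -/
def covers2 (l : List ℕ) (a b c d : ℕ) : Bool :=
  l.all (fun z => !z.testBit a) &&
  Nat.beq (l.foldr (fun z w => Nat.land z w) board ||| bit b ||| bit c ||| bit d)
    (bit b ||| bit c ||| bit d)

theorem outside_spec {z : ℕ} {sx sy sw : Bool} {x y : ℕ} (hx15 : x < 15) (hy15 : y < 15)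
    (h : outside z sx sy sw x y = true) :
    signedPerm sx sy sw ((x : ℤ) - 7, (y : ℤ) - 7) ∉ S z := by
  simp only [outside, Bool.not_eq_true'] at h
  set x' := (if sx then 14 - x else x) with hx'
  set y' := (if sy then 14 - y else y) with hy'
  have ex : (if sx then -((x : ℤ) - 7) else (x : ℤ) - 7) = (x' : ℤ) - 7 := by
    cases sx
    · simp [hx']
    · simp only [hx', if_true]; omega
  have ey : (if sy then -((y : ℤ) - 7) else (y : ℤ) - 7) = (y' : ℤ) - 7 := by
    cases sy
    · simp [hy']
    · simp only [hy', if_true]; omega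
  have lx : x' < 15 := by
    cases sx
    · simp only [hx', Bool.false_eq_true, if_false]; omega
    · simp only [hx', if_true]; omega
  have ly : y' < 15 := by
    cases sy
    · simp only [hy', Bool.false_eq_true, if_false]; omega
    · simp only [hy', if_true]; omega
  have key : signedPerm sx sy sw ((x : ℤ) - 7, (y : ℤ) - 7) =
      cellOf (if sw then y' + 16 * ((x' + 11) % 16) else x' + 16 * ((y' + 11) % 16)) := by
    have key2 : ∀ u v : ℕ, u < 15 → v < 15 →
        cellOf (u + 16 * ((v + 11) % 16)) = ((u : ℤ) - 7, (v : ℤ) - 7) := by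
      intro u v hu hv
      have e0 : u + 16 * ((v + 11) % 16) < 256 := by omega
      have e1 : (u + 16 * ((v + 11) % 16)) % 16 = u := by omega
      have e2 : ((u + 16 * ((v + 11) % 16)) / 16 + 5) % 16 = v := by omega
      simp only [cellOf, e0, if_true, e1, e2]
    cases sw
    · simp only [signedPerm, ex, ey, Bool.false_eq_true, if_false, key2 x' y' lx ly]
    · simp only [signedPerm, ex, ey, if_true, key2 y' x' ly lx]
  rw [key, mem_S_cellOf, h]
  simp

theorem S_board {z : ℕ} (hz : Nat.beq (z ||| board) board = true) {p : Cell} (hp : p ∈ S z) :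
    -7 ≤ p.1 ∧ p.1 ≤ 7 ∧ -7 ≤ p.2 ∧ p.2 ≤ 7 := by
  obtain ⟨i, hi, rfl⟩ := hp
  have h1 := Nat.eq_of_beq_eq_true hz
  have h2 : board.testBit i = true := by
    rw [← h1, Nat.testBit_or, hi, Bool.true_or]
  have h3 := board_ok i h2
  simp only [cellOf, h3.1, if_true]
  omega

/-- The four neighbours of the origin. -/
def Nbr (b : Cell) : Prop := b = (1, 0) ∨ b = (-1, 0) ∨ b = (0, 1) ∨ b = (0, -1)

theorem winX_reply (l : List ℕ) (h : ∀ z ∈ l, Good (S 549755813888) (S z))
    (hc : coversX l = true) (hne : l ≠ []) (b : Cell) (hb0 : b ≠ (0, 0)) (hbn : ¬ Nbr b) :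
    Win {(0, 0)} {b} := by
  have hcore : S 549755813888 = {((0, 0) : Cell)} := by
    ext p
    rw [show (549755813888 : ℕ) = bit 39 by decide +kernel, mem_S_bit]
    rfl
  rw [hcore] at h
  simp only [coversX, Bool.and_eq_true, List.all_eq_true, List.mem_range, Bool.or_eq_true,
    List.any_eq_true, beq_iff_eq] at hc
  obtain ⟨hb, hc⟩ := hc
  obtain ⟨z, hz, sx, sy, sw, hout⟩ : ∃ z ∈ l, ∃ sx sy sw : Bool, signedPerm sx sy sw b ∉ S z := by
    by_cases hin : -7 ≤ b.1 ∧ b.1 ≤ 7 ∧ -7 ≤ b.2 ∧ b.2 ≤ 7
    · obtain ⟨x, hx⟩ := Int.eq_ofNat_of_zero_le (show 0 ≤ b.1 + 7 by omega)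
      obtain ⟨y, hy⟩ := Int.eq_ofNat_of_zero_le (show 0 ≤ b.2 + 7 by omega)
      have hbx : b.1 = (x : ℤ) - 7 := by omega
      have hby : b.2 = (y : ℤ) - 7 := by omega
      have hbb : b = ((x : ℤ) - 7, (y : ℤ) - 7) := Prod.ext hbx hby
      have hx15 : x < 15 := by omega
      have hy15 : y < 15 := by omega
      rcases hc x hx15 y hy15 with (⟨h1, h2⟩ | hn) | ⟨z, hz, s, hs, hs2⟩
      · exfalso
        apply hb0
        rw [hbb, h1, h2]
        rfl
      · exfalso
        apply hbn
        simp only [nbr, Bool.or_eq_true, Bool.and_eq_true, Nat.beq_eq] at hn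
        rw [hbb]
        rcases hn with ⟨h1, h2 | h2⟩ | ⟨h1, h2 | h2⟩ <;> subst h1 <;> subst h2 <;> simp [Nbr]
      · refine ⟨z, hz, s.1, s.2.1, s.2.2, ?_⟩
        rw [hbb]
        exact outside_spec hx15 hy15 hs2
    · obtain ⟨z, hz⟩ := List.exists_mem_of_ne_nil l hne
      refine ⟨z, hz, false, false, false, fun hmem => hin ?_⟩
      exact S_board (hb z hz) hmem
  obtain ⟨a', b', c', h1, h2⟩ := signedPerm_inv sx sy sw
  have hw : Win {(0, 0)} {signedPerm sx sy sw b} := by
    refine h z hz {(0, 0)} {signedPerm sx sy sw b} ?_ ?_ ?_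
    · intro p hp
      rw [Set.mem_singleton_iff.mp hp]
      simp
    · intro p hp hp2
      rw [Finset.mem_singleton.mp hp2] at hp
      exact hout hp
    · intro p hp hp2
      rw [Finset.mem_singleton] at hp hp2
      apply hb0
      have := h2 b
      rw [← hp2, hp, signedPerm_zero] at this
      exact this.symm
  have := hw.symm a' b' c'
  simpa [h2, signedPerm_zero] using this

theorem S_foldr_and (l : List ℕ) (p : Cell) (w : ℕ) (hw : p ∈ S w) (h : ∀ z ∈ l, p ∈ S z) :
    p ∈ S (l.foldr (fun z w => Nat.land z w) w) := by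
  induction l with
  | nil => exact hw
  | cons a l ih =>
    show p ∈ S (a &&& _)
    rw [mem_S_and]
    exact ⟨h a (by simp), ih (fun z hz => h z (by simp [hz]))⟩

/-- The second reply: Maker owns the origin and the cell below it, and Breaker the cell to the
right of the origin. -/
theorem winX_reply2 (l : List ℕ) (h : ∀ z ∈ l, Good (S 549764202496) (S z))
    (hbd : l.all (fun z => Nat.beq (z ||| board) board) = true)
    (hc : covers2 l 40 39 23 7 = true) (hne : l ≠ []) (b : Cell) (hb0 : b ≠ (0, 0))
    (hb1 : b ≠ (0, -1)) (hb2 : b ≠ (0, -2)) (hb3 : b ≠ (1, 0)) :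
    Win {(0, -1), (0, 0)} {b, (1, 0)} := by
  have e40 : cellOf 40 = (1, 0) := by decide +kernel
  have e39 : cellOf 39 = (0, 0) := by decide +kernel
  have e23 : cellOf 23 = (0, -1) := by decide +kernel
  have e7 : cellOf 7 = (0, -2) := by decide +kernel
  simp only [List.all_eq_true] at hbd
  simp only [covers2, Bool.and_eq_true, List.all_eq_true, Bool.not_eq_true'] at hc
  obtain ⟨hc1, hc2⟩ := hc
  have hc2 := Nat.eq_of_beq_eq_true hc2
  obtain ⟨z, hz, hout⟩ : ∃ z ∈ l, b ∉ S z := by
    by_contra hcon
    push Not at hcon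
    have hbo : b ∈ S board := by
      obtain ⟨z, hz⟩ := List.exists_mem_of_ne_nil l hne
      rw [← Nat.eq_of_beq_eq_true (hbd z hz), mem_S_or]
      exact Or.inl (hcon z hz)
    have h1 := S_foldr_and l b board hbo hcon
    have h2 : b ∈ S (l.foldr (fun z w => Nat.land z w) board ||| bit 39 ||| bit 23 ||| bit 7) := by
      rw [mem_S_or, mem_S_or, mem_S_or]
      exact Or.inl (Or.inl (Or.inl h1))
    rw [hc2, mem_S_or, mem_S_or, mem_S_bit, mem_S_bit, mem_S_bit, e39, e23, e7] at h2
    tauto
  refine h z hz _ _ ?_ ?_ ?_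
  · intro p hp
    rw [show (549764202496 : ℕ) = bit 39 ||| bit 23 by decide +kernel, mem_S_or, mem_S_bit,
      mem_S_bit, e39, e23] at hp
    simp only [Finset.mem_insert, Finset.mem_singleton]
    tauto
  · intro p hp hpB
    simp only [Finset.mem_insert, Finset.mem_singleton] at hpB
    rcases hpB with rfl | rfl
    · exact hout hp
    · rw [← e40, mem_S_cellOf, hc1 z hz] at hp
      exact absurd hp (by simp)
  · intro p hp hpB
    simp only [Finset.mem_insert, Finset.mem_singleton] at hp hpB
    rcases hp with rfl | rfl <;> rcases hpB with h' | h'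
    · exact hb1 h'.symm
    · simp at h'
    · exact hb0 h'.symm
    · simp at h'

/-- The excused pairs of first claims of Breaker. -/
def excused : Finset (Cell × Cell) :=
  {((1, 0), (0, -2)), ((-1, 0), (0, -2)), ((0, 1), (-2, 0)), ((0, -1), (-2, 0))}

/-- The predicate on lists belonging to the excused pairs. -/
def ExcusedList (l : List Cell) : Prop := ∃ p ∈ excused, l = [p.1, p.2]

theorem winX_main (l1 l2 : List ℕ) (h1 : ∀ z ∈ l1, Good (S 549755813888) (S z))
    (hc1 : coversX l1 = true) (hn1 : l1 ≠ []) (h2 : ∀ z ∈ l2, Good (S 549764202496) (S z))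
    (hbd : l2.all (fun z => Nat.beq (z ||| board) board) = true)
    (hc2 : covers2 l2 40 39 23 7 = true) (hn2 : l2 ≠ []) : WinX ExcusedList ∅ ∅ := by
  refine WinX.move (0, 0) (by simp) (by simp) (fun b hb _ => ?_)
  have hb0 : b ≠ (0, 0) := by simpa using hb
  by_cases hbn : Nbr b
  · obtain ⟨sx, sy, sw, hb', hex⟩ : ∃ sx sy sw : Bool, signedPerm sx sy sw (1, 0) = b ∧
        (signedPerm sx sy sw (1, 0), signedPerm sx sy sw (0, -2)) ∈ excused := by
      rcases hbn with rfl | rfl | rfl | rfl
      · exact ⟨false, false, false, by decide, by decide⟩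
      · exact ⟨true, false, false, by decide, by decide⟩
      · exact ⟨false, false, true, by decide, by decide⟩
      · exact ⟨true, false, true, by decide, by decide⟩
    obtain ⟨a', b', c', hi1, hi2⟩ := signedPerm_inv sx sy sw
    have hinj : Function.Injective (signedPerm sx sy sw) := Function.LeftInverse.injective hi2
    subst hb'
    refine WinX.move (signedPerm sx sy sw (0, -1)) ?_ ?_ (fun c hc hcB => ?_)
    · intro hmem
      simp only [Finset.mem_insert, Finset.notMem_empty, or_false] at hmem
      rw [← signedPerm_zero sx sy sw] at hmem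
      exact absurd (hinj hmem) (by simp)
    · intro hmem
      simp only [Finset.mem_insert, Finset.notMem_empty, or_false] at hmem
      exact absurd (hinj hmem) (by simp)
    simp only [Finset.mem_insert, Finset.notMem_empty, or_false, not_or] at hc hcB
    by_cases hc3 : c = signedPerm sx sy sw (0, -2)
    · subst hc3
      exact WinX.excused ⟨_, hex, rfl⟩
    refine WinX.win ?_
    set d := signedPerm a' b' c' c with hd
    have hcd : c = signedPerm sx sy sw d := (hi1 c).symm
    have hw := winX_reply2 l2 h2 hbd hc2 hn2 d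
      (fun h => hc.2 (by rw [hcd, h, signedPerm_zero]))
      (fun h => hc.1 (by rw [hcd, h]))
      (fun h => hc3 (by rw [hcd, h]))
      (fun h => hcB (by rw [hcd, h]))
    have hw' := hw.symm sx sy sw
    simp only [Finset.image_insert, Finset.image_singleton, signedPerm_zero, ← hcd] at hw'
    exact hw'
  · exact WinX.win (by simpa using winX_reply l1 h1 hc1 hn1 b hb0 hbn)

theorem strategyX (l1 l2 : List ℕ) (h1 : ∀ z ∈ l1, Good (S 549755813888) (S z))
    (hc1 : coversX l1 = true) (hn1 : l1 ≠ []) (h2 : ∀ z ∈ l2, Good (S 549764202496) (S z))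
    (hbd : l2.all (fun z => Nat.beq (z ||| board) board) = true)
    (hc2 : covers2 l2 40 39 23 7 = true) (hn2 : l2 ≠ []) :
    ∃ σ : Strategy, ∀ b : ℕ → Cell, BreakerLegal σ b → (b 0, b 1) ∉ excused →
      ∃ n, MakerWinsAt σ b n := by
  obtain ⟨σ, hσ⟩ := (winX_main l1 l2 h1 hc1 hn1 h2 hbd hc2 hn2).strategy
  refine ⟨σ, fun b hb hx => ?_⟩
  rcases hσ b hb with ⟨k, p, hp, he⟩ | h
  · exfalso
    apply hx
    have hk : k = 2 := by
      have := congrArg List.length he
      simpa using this
    subst hk
    have h0 : b 0 = p.1 ∧ b 1 = p.2 := by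
      simpa [List.range_succ] using he
    rw [h0.1, h0.2]
    exact hp
  · exact h

end Vale.Agent.P062
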