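import Vale.Agent.P062.Final
import Vale.Agent.P062.Data.a0
import Vale.Agent.P062.Data.a1
import Vale.Agent.P062.Data.a2
import Vale.Agent.P062.Data.a3
import Vale.Agent.P062.Data.a4
import Vale.Agent.P062.Data.a5
import Vale.Agent.P062.Data.a6
import Vale.Agent.P062.Data.f

namespace Vale.Agent.P062

/-- Zones of the patterns which together answer every first reply of Breaker. -/
def zones : List ℕ := [
  57894719463138782580751621571746356674109046921029184508689785892729113247743,
  7235266121777342328907647286427028868178939630050955606687929942021830021119,
  57892731571465520874176596400614696051047849292451779382276458552815563718654,
  28944709364924534035143698693368348650813477103158513936963805175367350493180,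
  14470587834977051773706883470717017342173632897972099244405547356948946362367,
  7233527070631492415220751545052016010345244183875106757109381362056580435967,
  57889032229318774330421218179116060168206109415430975019720427077058068103166,
  57895161181645426648448227652086575646285606264083537704782724516925119889407]

theorem zones_good : ∀ z ∈ zones, Good (S 549755813888) (S z) := by
  simp only [zones, List.forall_mem_cons, List.not_mem_nil, false_imp_iff, implies_true, and_true]
  exact ⟨good_a0, good_a1, good_a2, good_a3, good_a4, good_a5, good_a6, good_f⟩

theorem win_empty : Win ∅ ∅ :=
  win_of_goods zones zones_good (by decide +kernel) (by simp [zones])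

end Vale.Agent.P062
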