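import Vale.Agent.P062.GameX
import Vale.Agent.P062.Data.a0
import Vale.Agent.P062.Data.a1
import Vale.Agent.P062.Data.a2
import Vale.Agent.P062.Data.a3
import Vale.Agent.P062.Data.a4
import Vale.Agent.P062.Data.a5
import Vale.Agent.P062.Data.a6
import Vale.Agent.P062.Data.b0
import Vale.Agent.P062.Data.b1
import Vale.Agent.P062.Data.b2
import Vale.Agent.P062.Data.b3
import Vale.Agent.P062.Data.b4
import Vale.Agent.P062.Data.b5
import Vale.Agent.P062.Data.b6
import Vale.Agent.P062.Data.b7
import Vale.Agent.P062.Data.b8
import Vale.Agent.P062.Data.b9
import Vale.Agent.P062.Data.b10
import Vale.Agent.P062.Data.b11
import Vale.Agent.P062.Data.b12
import Vale.Agent.P062.Data.b13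
import Vale.Agent.P062.Data.b14

namespace Vale.Agent.P062

/-- Zones of the patterns for the first reply. -/
def zones1 : List ℕ := [
  57894719463138782580751621571746356674109046921029184508689785892729113247743,
  7235266121777342328907647286427028868178939630050955606687929942021830021119,
  57892731571465520874176596400614696051047849292451779382276458552815563718654,
  28944709364924534035143698693368348650813477103158513936963805175367350493180,
  14470587834977051773706883470717017342173632897972099244405547356948946362367,
  7233527070631492415220751545052016010345244183875106757109381362056580435967,
  57889032229318774330421218179116060168206109415430975019720427077058068103166]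

/-- Zones of the patterns for the second reply. -/
def zones2 : List ℕ := [
  7222898192317312323412803725179421360421495656860901168084481384427015373816,
  791556112203649667858051573777655341372528375044436965762797828906114089408,
  3604478008861946371545985626309506346985803634645269517298858348378062589944,
  14472354520046020678024472868114577823440366222090685480911807723765808185343,
  6897779568077745910897927736345181732072312722646576122810000738923970562040,
  7222898192317312323431193671669812026722003492144414836343388204157564880888,
  6777724985295262410394667795722726241608160903909358374790840339603496902648,
  901105779778702779205591403296126656355349903053456984706756984610591016703,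
  14346847341680389287601305744544075658108728065415477617151226928713791184888,
  57893394135748109690945797563496726200832869889842637913342744884802343632830,
  57895161174905028599231684139887708337834925509591108666757493893053657612287,
  28945372015140333034721153173239145724827392864117174443238941159822142177279,
  14472685972185673993151021362270327750902577130250809126960098484480511000575,
  14470698296197295035278487429971855291594429749114210191902839934600238538751,
  57892952622813142362149187822927659087819187850956627411916880721757534584831]

theorem zones1_good : ∀ z ∈ zones1, Good (S 549755813888) (S z) := by
  simp only [zones1, List.forall_mem_cons, List.not_mem_nil, false_imp_iff, implies_true, and_true]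
  exact ⟨good_a0, good_a1, good_a2, good_a3, good_a4, good_a5, good_a6⟩

theorem zones2_good : ∀ z ∈ zones2, Good (S 549764202496) (S z) := by
  simp only [zones2, List.forall_mem_cons, List.not_mem_nil, false_imp_iff, implies_true, and_true]
  exact ⟨good_b0, good_b1, good_b2, good_b3, good_b4, good_b5, good_b6, good_b7, good_b8, good_b9, good_b10, good_b11, good_b12, good_b13, good_b14⟩

theorem excused_main : ∃ σ : Strategy, ∀ b : ℕ → Cell, BreakerLegal σ b → (b 0, b 1) ∉ excused →
    ∃ n, MakerWinsAt σ b n :=
  strategyX zones1 zones2 zones1_good (by decide +kernel) (by simp [zones1]) zones2_good
    (by decide +kernel) (by decide +kernel) (by simp [zones2])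

end Vale.Agent.P062
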