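import Vale.Agent.P062.Check

namespace Vale.Agent.P062

/-- Evaluate the argument first. -/
noncomputable def strict {α : Type} (n : ℕ) (f : ℕ → α) : α :=
  Nat.rec (motive := fun _ => α) (f 0) (fun k _ => f (Nat.succ k)) n

theorem strict_eq {α : Type} (n : ℕ) (f : ℕ → α) : strict n f = f n := by
  cases n <;> rfl

/-- No digit of `n` codes a cell outside of the board. -/
def Clean (n : ℕ) : Prop := ∀ i, n.testBit i = true → i % 16 ≠ 15 ∧ i / 16 ≠ 10

/-- The pattern with core `c` and zone `z` is good, provided that it lies on the board. -/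
def GoodG (c z : ℕ) : Prop := Clean c → Clean z → Good (S c) (S z)

/-- Stacks of patterns (core, zone). -/
inductive Stk : Type
  | nil : Stk
  | cons (c z : ℕ) (s : Stk) : Stk

/-- All patterns of the stack are good. -/
def Stk.AllG : Stk → Prop
  | .nil => True
  | .cons c z s => GoodG c z ∧ s.AllG

/-- The coded set of the cells of a translate of a shape.  Here `k = r + 512 * s`, the shape is `s`
and its corner is at `256 - r`. -/
noncomputable def mu (k : ℕ) : ℕ :=
  Nat.mod (Nat.mod (Nat.shiftRight (nat_lit 332766573426144190110603807897847825411512393681429639892897945141893246470841951842277052440556207644649972577351380285036434049385116686756858966742144004384066767193997656729337472237045407235805677571317232363820899863753241604109382635839013122640208759492538433049062448105382158424744754878088295596783425385927306021789404629821992797365028342507324828936781676008675380694064480031691711564080228926099646689515297006712040398144571996851905161375892259364682452570881953415013820632759825999897666171761553510061382351709365202708549557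299433720161986444293547918496976641881887100244608476543160917848808800906042027805279001659061948598457655892828881551289594521938454355187595905439412048915265372533689076539114996490054150725284059519497372044218594058431091402039516149029333974769379038618867573933510194469715404597836252551405805658182412483866342454563526552451446072158639511035246119773443118337943978244098347862422261432414562315741563372685360071642737401671047848453301043063842105762985929017668905074148159642064223357218795658012971788322041816594796854223738889958672166889286728921253616235108852635672509138653410697431418187877154079899648000) k) (nat_lit 13407807929942597099574024998205846127479365820592393377723561443721764030073546976801874298166903427690031858186486050853753882811946569946433649006084096)) (nat_lit 115792089237316195423570985008687907853269984665640564039457584007913129639935)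

/-- Push a leaf.  Here `v = k + 4096 * m`. -/
noncomputable def leafStep (v : ℕ) (st : Stk) : Stk :=
  strict (bit (Nat.div v (nat_lit 4096))) fun b =>
    strict (diff (mu (Nat.land v (nat_lit 3839))) b) fun c => Stk.cons c b st

/-- Push the pattern obtained from `U`, `I`, `Z` and `m`. -/
noncomputable def finish (st : Stk) (U I Z m : ℕ) : Stk :=
  strict (bit m) fun b =>
    strict (diff (Nat.lor U I) b) fun c =>
      strict (diff (Nat.lor Z b) c) fun z => Stk.cons c z st

/-- Combine the given data with the first `n` entries of the stack and push the result. -/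
noncomputable def comb (n : ℕ) : Stk → ℕ → ℕ → ℕ → ℕ → Stk :=
  Nat.rec (motive := fun _ => Stk → ℕ → ℕ → ℕ → ℕ → Stk) finish
    (fun _ ih st U I Z m => Stk.rec (motive := fun _ => Stk) (finish Stk.nil U I Z m)
      (fun c z st' _ => ih st' (Nat.lor U c) (Nat.land I z) (Nat.lor Z z) m) st) n

/-- Combine the first entries of the stack.  Here `v = m + 256 * n`, and `n + 1` entries are
combined. -/
noncomputable def nodeStep (v : ℕ) (st : Stk) : Stk :=
  Stk.rec (motive := fun _ => Stk) Stk.nil
    (fun c z st' _ => comb (Nat.div v (nat_lit 256)) st' c z z (Nat.mod v (nat_lit 256))) st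

/-- One instruction. -/
noncomputable def step (w : ℕ) (st : Stk) : Stk :=
  Bool.rec (motive := fun _ => Stk) (nodeStep (Nat.div w (nat_lit 2)) st)
    (leafStep (Nat.div w (nat_lit 2)) st) (Nat.beq (Nat.mod w (nat_lit 2)) (nat_lit 0))

/-- Evaluate a stack, then continue. -/
noncomputable def force (f : Stk → Stk) (st : Stk) : Stk :=
  Stk.rec (motive := fun _ => Stk) (f Stk.nil) (fun c z s _ => f (Stk.cons c z s)) st

/-- Run `n` instructions, coded in base `2 ^ 21`. -/
noncomputable def runN (n : ℕ) : ℕ → Stk → Stk :=
  Nat.rec (motive := fun _ => ℕ → Stk → Stk) (fun _ st => st)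
    (fun _ ih d st => strict (Nat.div d (nat_lit 2097152)) fun d' =>
      strict (Nat.mod d (nat_lit 2097152)) fun w => force (ih d') (step w st)) n

/-- Run a list of blocks of `n` instructions. -/
noncomputable def runL (n : ℕ) (l : List ℕ) : Stk → Stk :=
  List.rec (motive := fun _ => Stk → Stk) (fun st => st) (fun d _ ih st => ih (runN n d st)) l

/-! ### Leaves -/

/-- The codes of the cells of the shape `s` with corner at `256 - r`. -/
def codes (s r : ℕ) : List ℕ := (shape s).map (fun a => (a + (256 - r)) % 256)

/-- The check of one leaf. -/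
noncomputable def leafOK (s r : ℕ) : Bool :=
  Nat.beq (mu (r + 512 * s)) (bits (codes s r)) &&
    ((codes s r).any (fun i => Nat.beq (i % 16) 15 || Nat.beq (i / 16) 10) ||
      (shape s).all (fun a => Nat.ble ((256 - r) % 16 + a % 16) 15 &&
        Nat.ble (((256 - r) / 16 + 5) % 16 + a / 16) 15))

theorem leafOK_all : (List.range 8).all (fun s => (List.range 256).all (leafOK s)) = true := by
  decide +kernel

theorem leafOK_of_lt {s r : ℕ} (hs : s < 8) (hr : r < 256) : leafOK s r = true := by
  have := leafOK_all
  simp only [List.all_eq_true, List.mem_range] at this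
  exact this s hs r hr

/-- The cells of a shape. -/
def shapeCells (s : ℕ) : Finset Cell :=
  (shape s).toFinset.image (fun a => (((a % 16 : ℕ) : ℤ), ((a / 16 : ℕ) : ℤ)))

theorem shape_copy (s : ℕ) (hs : s < 8) :
    ∃ (sx sy sw : Bool) (o : Cell),
      shapeCells s = snaky.image (fun p => o + signedPerm sx sy sw p) := by
  interval_cases s
  · exact ⟨false, false, false, (0, 0), by decide⟩
  · exact ⟨false, true, false, (0, 1), by decide⟩
  · exact ⟨true, false, false, (4, 0), by decide⟩
  · exact ⟨true, true, false, (4, 1), by decide⟩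
  · exact ⟨false, false, true, (0, 0), by decide⟩
  · exact ⟨false, true, true, (1, 0), by decide⟩
  · exact ⟨true, false, true, (0, 4), by decide⟩
  · exact ⟨true, true, true, (1, 4), by decide⟩

theorem cellOf_add {a t : ℕ} (h1 : t % 16 + a % 16 ≤ 15)
    (h2 : (t / 16 + 5) % 16 + a / 16 ≤ 15) :
    cellOf ((a + t) % 256) =
      cellOf (t % 256) + (((a % 16 : ℕ) : ℤ), ((a / 16 : ℕ) : ℤ)) := by
  have e1 : (a + t) % 256 % 16 = t % 16 + a % 16 := by omega
  have e2 : ((a + t) % 256 / 16 + 5) % 16 = (t / 16 + 5) % 16 + a / 16 := by omega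
  have e3 : t % 256 % 16 = t % 16 := by omega
  have e4 : (t % 256 / 16 + 5) % 16 = (t / 16 + 5) % 16 := by omega
  have l1 : (a + t) % 256 < 256 := by omega
  have l2 : t % 256 < 256 := by omega
  simp only [cellOf, l1, l2, if_true, e1, e2, e3, e4, Prod.mk_add_mk, Nat.cast_add]
  congr 1 <;> ring

theorem testBit_bits {l : List ℕ} {a : ℕ} (h : a ∈ l) : (bits l).testBit a = true := by
  rw [← mem_S_cellOf, mem_S_bits]
  exact ⟨a, h, rfl⟩

theorem land_form (v : ℕ) : ∃ s r, s < 8 ∧ r < 256 ∧ Nat.land v 3839 = r + 512 * s := by
  have h1 : Nat.land v 3839 < 4096 := lt_of_le_of_lt Nat.and_le_right (by norm_num)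
  have h2 : (Nat.land v 3839).testBit 8 = false := by
    show (v &&& 3839).testBit 8 = false
    rw [Nat.testBit_and, show (3839 : ℕ).testBit 8 = false by decide, Bool.and_false]
  have h3 : Nat.land v 3839 / 256 % 2 ≠ 1 := by
    rw [Nat.testBit_eq_decide_div_mod_eq] at h2
    simpa using h2
  exact ⟨Nat.land v 3839 / 512, Nat.land v 3839 % 512, by omega, by omega, by omega⟩

theorem goodG_leaf (v m : ℕ) : GoodG (diff (mu (Nat.land v 3839)) (bit m)) (bit m) := by
  intro hc hz
  obtain ⟨s, r, hs, hr, hk⟩ := land_form v
  rw [hk] at hc ⊢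
  have hok := leafOK_of_lt hs hr
  simp only [leafOK, Bool.and_eq_true, Bool.or_eq_true, List.any_eq_true, List.all_eq_true] at hok
  obtain ⟨hmu, hok⟩ := hok
  have hmu : mu (r + 512 * s) = bits (codes s r) := Nat.eq_of_beq_eq_true hmu
  have hclean : ∀ i ∈ codes s r, i % 16 ≠ 15 ∧ i / 16 ≠ 10 := by
    intro i hi
    by_cases him : i = m
    · exact hz i (by rw [← mem_S_cellOf, mem_S_bit, him])
    · apply hc i
      rw [← mem_S_cellOf, mem_S_diff, mem_S_bit, hmu, mem_S_cellOf]
      exact ⟨testBit_bits hi, fun h => him (cellOf_injective h)⟩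
  rcases hok with ⟨i, hi, hg⟩ | hall
  · exfalso
    have := hclean i hi
    rcases hg with hg | hg
    · exact this.1 (Nat.eq_of_beq_eq_true hg)
    · exact this.2 (Nat.eq_of_beq_eq_true hg)
  · have hcell : ∀ a ∈ shape s, cellOf ((a + (256 - r)) % 256) =
        cellOf ((256 - r) % 256) + (((a % 16 : ℕ) : ℤ), ((a / 16 : ℕ) : ℤ)) := by
      intro a ha
      obtain ⟨h1, h2⟩ := hall a ha
      exact cellOf_add (Nat.le_of_ble_eq_true h1) (Nat.le_of_ble_eq_true h2)
    have hcopy : IsCopy ((codes s r).toFinset.image cellOf) := by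
      obtain ⟨sx, sy, sw, o, h⟩ := shape_copy s hs
      refine ⟨sx, sy, sw, cellOf ((256 - r) % 256) + o, ?_⟩
      have h2 : ((codes s r).toFinset.image cellOf) =
          (shapeCells s).image (fun q => cellOf ((256 - r) % 256) + q) := by
        ext p
        simp only [codes, shapeCells, Finset.mem_image, List.mem_toFinset, List.mem_map]
        constructor
        · rintro ⟨_, ⟨a, ha, rfl⟩, rfl⟩
          exact ⟨_, ⟨a, ha, rfl⟩, (hcell a ha).symm⟩
        · rintro ⟨_, ⟨a, ha, rfl⟩, rfl⟩
          exact ⟨_, ⟨a, ha, rfl⟩, hcell a ha⟩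
      rw [h2, h, Finset.image_image]
      congr 1
      funext p
      simp [Function.comp, add_assoc]
    refine good_leaf _ hcopy (cellOf m) _ _ ?_ (mem_S_bit.mpr rfl)
    intro p hp
    simp only [Finset.mem_image, List.mem_toFinset] at hp
    obtain ⟨i, hi, rfl⟩ := hp
    by_cases him : cellOf i = cellOf m
    · exact Or.inr him
    · left
      rw [mem_S_diff, mem_S_bit, hmu, mem_S_cellOf]
      exact ⟨testBit_bits hi, him⟩

theorem allG_leafStep (v : ℕ) {st : Stk} (h : st.AllG) : (leafStep v st).AllG := by
  simp only [leafStep, strict_eq]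
  exact ⟨goodG_leaf v _, h⟩

/-! ### Nodes -/

/-- The data `U`, `I`, `Z` describe a nonempty family of good patterns. -/
def Fam (U I Z : ℕ) : Prop :=
  ∃ l : List (ℕ × ℕ), (∀ q ∈ l, GoodG q.1 q.2) ∧ (∀ q ∈ l, ∀ i, q.1.testBit i → U.testBit i) ∧
    (∀ q ∈ l, ∀ i, q.2.testBit i → Z.testBit i) ∧ (∀ p, (∀ q ∈ l, p ∈ S q.2) → p ∈ S I)

theorem diff_testBit (a b i : ℕ) : (diff a b).testBit i = (a.testBit i && !b.testBit i) := by
  show (a ^^^ (a &&& b)).testBit i = _
  rw [Nat.testBit_xor, Nat.testBit_and]
  cases a.testBit i <;> cases b.testBit i <;> rfl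

theorem bit_testBit (m i : ℕ) : (bit m).testBit i = decide (m = i) := by
  show (1 <<< m).testBit i = _
  rw [Nat.one_shiftLeft, Nat.testBit_two_pow]

theorem Fam.good {U I Z : ℕ} (h : Fam U I Z) (m : ℕ) :
    GoodG (diff (Nat.lor U I) (bit m))
      (diff (Nat.lor Z (bit m)) (diff (Nat.lor U I) (bit m))) := by
  obtain ⟨l, h1, h2, h3, h4⟩ := h
  have hor : ∀ a b : ℕ, Nat.lor a b = a ||| b := fun _ _ => rfl
  simp only [hor]
  intro hc hz
  have hm : m % 16 ≠ 15 ∧ m / 16 ≠ 10 := by
    apply hz m
    simp [diff_testBit, bit_testBit]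
  have hcU : ∀ q ∈ l, Clean q.1 := by
    intro q hq i hi
    by_cases him : m = i
    · exact him ▸ hm
    · apply hc i
      simp [diff_testBit, bit_testBit, h2 q hq i hi, him]
  have hcZ : ∀ q ∈ l, Clean q.2 := by
    intro q hq i hi
    by_cases him : m = i
    · exact him ▸ hm
    · by_cases hci : (diff (U ||| I) (bit m)).testBit i = true
      · exact hc i hci
      · apply hz i
        rw [diff_testBit, Nat.testBit_or, h3 q hq i hi]
        simpa using hci
  refine good_step (ι := {q // q ∈ l}) (fun q => S q.1.1) (fun q => S q.1.2)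
    (fun q => h1 q.1 q.2 (hcU q.1 q.2) (hcZ q.1 q.2)) (cellOf m) _ _ ?_ ?_ ?_ ?_
  · rintro ⟨q, hq⟩ p ⟨i, hi, rfl⟩
    by_cases hpm : cellOf i = cellOf m
    · exact Or.inr hpm
    · left
      rw [mem_S_diff, mem_S_or, mem_S_bit, mem_S_cellOf]
      exact ⟨Or.inl (h2 q hq i hi), hpm⟩
  · rintro ⟨q, hq⟩ p ⟨i, hi, rfl⟩
    by_cases hpc : cellOf i ∈ S (diff (U ||| I) (bit m))
    · exact Or.inl hpc
    · right
      rw [mem_S_diff, mem_S_or, mem_S_cellOf]
      exact ⟨Or.inl (h3 q hq i hi), hpc⟩
  · intro p hp
    by_cases hpm : p = cellOf m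
    · exact Or.inr hpm
    · left
      rw [mem_S_diff, mem_S_or, mem_S_bit]
      exact ⟨Or.inr (h4 p (fun q hq => hp ⟨q, hq⟩)), hpm⟩
  · right
    rw [mem_S_diff, mem_S_or, mem_S_diff]
    exact ⟨Or.inr (mem_S_bit.mpr rfl), fun h => h.2 (mem_S_bit.mpr rfl)⟩

theorem Fam.step {U I Z : ℕ} (h : Fam U I Z) {c z : ℕ} (hq : GoodG c z) :
    Fam (Nat.lor U c) (Nat.land I z) (Nat.lor Z z) := by
  obtain ⟨l, h1, h2, h3, h4⟩ := h
  have hor : ∀ a b : ℕ, Nat.lor a b = a ||| b := fun _ _ => rfl
  have hand : ∀ a b : ℕ, Nat.land a b = a &&& b := fun _ _ => rfl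
  simp only [hor, hand]
  refine ⟨(c, z) :: l, ?_, ?_, ?_, ?_⟩
  · intro r hr
    rcases List.mem_cons.mp hr with rfl | hr
    · exact hq
    · exact h1 r hr
  · intro r hr i hi
    rw [Nat.testBit_or]
    rcases List.mem_cons.mp hr with rfl | hr
    · simp [hi]
    · simp [h2 r hr i hi]
  · intro r hr i hi
    rw [Nat.testBit_or]
    rcases List.mem_cons.mp hr with rfl | hr
    · simp [hi]
    · simp [h3 r hr i hi]
  · intro p hp
    rw [mem_S_and]
    exact ⟨h4 p (fun r hr => hp r (List.mem_cons_of_mem _ hr)), hp (c, z) List.mem_cons_self⟩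

theorem allG_finish {st : Stk} (hst : st.AllG) {U I Z : ℕ} (hF : Fam U I Z) (m : ℕ) :
    (finish st U I Z m).AllG := by
  simp only [finish, strict_eq]
  exact ⟨hF.good m, hst⟩

theorem allG_comb (n : ℕ) : ∀ (st : Stk) (U I Z m : ℕ), st.AllG → Fam U I Z →
    (comb n st U I Z m).AllG := by
  induction n with
  | zero =>
    intro st U I Z m hst hF
    exact allG_finish hst hF m
  | succ n ih =>
    intro st U I Z m hst hF
    cases st with
    | nil => exact allG_finish (st := Stk.nil) trivial hF m
    | cons c z st => exact ih st _ _ _ m hst.2 (hF.step hst.1)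

theorem allG_nodeStep (v : ℕ) {st : Stk} (h : st.AllG) : (nodeStep v st).AllG := by
  cases st with
  | nil => exact h
  | cons c z st =>
    refine allG_comb _ st _ _ _ _ h.2 ⟨[(c, z)], ?_, ?_, ?_, ?_⟩
    · intro r hr
      rw [List.mem_singleton.mp hr]; exact h.1
    · intro r hr i hi
      rw [List.mem_singleton.mp hr] at hi; exact hi
    · intro r hr i hi
      rw [List.mem_singleton.mp hr] at hi; exact hi
    · intro p hp
      exact hp (c, z) (List.mem_singleton.mpr rfl)

theorem allG_step (w : ℕ) {st : Stk} (h : st.AllG) : (step w st).AllG := by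
  unfold step
  cases Nat.beq (Nat.mod w 2) 0
  · exact allG_nodeStep _ h
  · exact allG_leafStep _ h

theorem force_eq (f : Stk → Stk) (st : Stk) : force f st = f st := by
  cases st <;> rfl

theorem allG_runN (n : ℕ) : ∀ (d : ℕ) (st : Stk), st.AllG → (runN n d st).AllG := by
  induction n with
  | zero => intro d st h; exact h
  | succ n ih =>
    intro d st h
    show (strict (Nat.div d 2097152) fun d' => strict (Nat.mod d 2097152) fun w =>
      force (runN n d') (step w st)).AllG
    rw [strict_eq, strict_eq, force_eq]
    exact ih _ _ (allG_step _ h)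

theorem allG_runL (n : ℕ) (l : List ℕ) : ∀ st : Stk, st.AllG → (runL n l st).AllG := by
  induction l with
  | nil => intro st h; exact h
  | cons d l ih => intro st h; exact ih _ (allG_runN n d st h)

/-! ### The result of a run -/

/-- The cells of the board. -/
def board : ℕ := 57895161181645529494837069159570900720870609891088877518245324997189355667455

theorem board_ok : ∀ i, board.testBit i = true → i < 256 ∧ i % 16 ≠ 15 ∧ i / 16 ≠ 10 := by
  have h : ∀ i, i < 256 → board.testBit i = true → i % 16 ≠ 15 ∧ i / 16 ≠ 10 := by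
    decide +kernel
  intro i hi
  by_cases h2 : i < 256
  · exact ⟨h2, h i h2 hi⟩
  · exfalso
    have h3 : board < 2 ^ i :=
      lt_of_lt_of_le (show board < 2 ^ 256 by decide +kernel)
        (Nat.pow_le_pow_right (by norm_num) (by omega))
    rw [Nat.testBit_lt_two_pow h3] at hi
    exact absurd hi (by simp)

theorem clean_of_board {n : ℕ} (h : Nat.lor n board = board) : Clean n := by
  intro i hi
  have h' : n ||| board = board := h
  have : board.testBit i = true := by rw [← h', Nat.testBit_or, hi, Bool.true_or]
  exact (board_ok i this).2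

/-- Do two stacks agree? -/
noncomputable def eqStk (st : Stk) : Stk → Bool :=
  Stk.rec (motive := fun _ => Stk → Bool)
    (fun st' => Stk.rec (motive := fun _ => Bool) true (fun _ _ _ _ => false) st')
    (fun c z _ ih st' => Stk.rec (motive := fun _ => Bool) false
      (fun c' z' s' _ => Nat.beq z z' && (Nat.beq c c' && ih s')) st') st

theorem eq_of_eqStk : ∀ st st' : Stk, eqStk st st' = true → st = st' := by
  intro st
  induction st with
  | nil =>
    intro st' h
    cases st' with
    | nil => rfl
    | cons c z s => exact absurd h (by simp [eqStk])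
  | cons c z s ih =>
    intro st' h
    cases st' with
    | nil => exact absurd h (by simp [eqStk])
    | cons c' z' s' =>
      change (Nat.beq z z' && (Nat.beq c c' && eqStk s s')) = true at h
      simp only [Bool.and_eq_true] at h
      rw [Nat.eq_of_beq_eq_true h.1, Nat.eq_of_beq_eq_true h.2.1, ih s' h.2.2]

theorem allG_of_run {n : ℕ} {l : List ℕ} {st st' : Stk} (h : eqStk (runL n l st) st' = true)
    (h0 : st.AllG) : st'.AllG := by
  rw [← eq_of_eqStk _ _ h]
  exact allG_runL n l st h0

/-- Does the pattern `(c, z)` lie on the board? -/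
def onBoard (c z : ℕ) : Bool := Nat.beq (Nat.lor c board) board && Nat.beq (Nat.lor z board) board

theorem good_of_allG {c z : ℕ} {s : Stk} (h : (Stk.cons c z s).AllG) (hb : onBoard c z = true) :
    Good (S c) (S z) := by
  simp only [onBoard, Bool.and_eq_true] at hb
  exact h.1 (clean_of_board (Nat.eq_of_beq_eq_true hb.1))
    (clean_of_board (Nat.eq_of_beq_eq_true hb.2))

end Vale.Agent.P062
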